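import Crest.Agent.R163.Q3.D.B7.P0_0
import Crest.Agent.R163.Q3.D.B7.P0_1

set_option autoImplicit false
set_option maxRecDepth 100000
set_option linter.all false
set_option Elab.async false

namespace Crest.Agent.R163.B7

theorem o0_7 : Ok2 par f7 Box3.unit C0 :=
  (Ok2.part 4722366482841184065023 p0_7_2 (Ok2.part 255 p0_7_0 p0_7_1))
theorem o0_6 : Ok2 par f6 Box3.unit C0 :=
  (Ok2.part 4722366482866953868799 p0_6_0 p0_6_1)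
theorem o0_5 : Ok2 par f5 Box3.unit C0 :=
  (Ok2.part 4722223355048911787519 p0_5_16 (Ok2.part 127 p0_5_15 (Ok2.split 0 (Ok2.part 3983 p0_5_9 (Ok2.split 1 p0_5_8 (Ok2.part 1 p0_5_7 (Ok2.split 0 (Ok2.part 383 p0_5_0 p0_5_1) (Ok2.part 2944 p0_5_6 (Ok2.split 1 p0_5_5 (Ok2.part 160 p0_5_4 (Ok2.split 0 p0_5_2 p0_5_3)))))))) (Ok2.part 4162592 p0_5_14 (Ok2.split 1 p0_5_13 (Ok2.part 5183 p0_5_12 (Ok2.split 0 p0_5_10 p0_5_11)))))))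
theorem o0_4 : Ok2 par f4 Box3.unit C0 :=
  (Ok2.part 4722366348969744793599 p0_4_9 (Ok2.split 0 p0_4_8 (Ok2.part 1 p0_4_7 (Ok2.split 0 p0_4_6 (Ok2.split 1 (Ok2.part 1 p0_4_4 (Ok2.split 0 p0_4_3 (Ok2.split 1 (Ok2.part 3 p0_4_0 p0_4_1) p0_4_2))) p0_4_5)))))
theorem o0_3 : Ok2 par f3 Box3.unit C0 :=
  (Ok2.part 2362335599984929406975 p0_3_5 (Ok2.split 1 p0_3_4 (Ok2.split 0 p0_3_3 (Ok2.part 3 p0_3_2 (Ok2.split 0 p0_3_0 p0_3_1)))))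
theorem o0_2 : Ok2 par f2 Box3.unit C0 :=
  (Ok2.part 2362192610429442031615 p0_2_19 (Ok2.split 1 (Ok2.part 2692742584 p0_2_6 (Ok2.split 0 p0_2_5 (Ok2.part 232 p0_2_4 (Ok2.split 1 p0_2_3 (Ok2.part 15 p0_2_2 (Ok2.split 1 p0_2_0 p0_2_1)))))) (Ok2.part 260049639 p0_2_18 (Ok2.split 0 p0_2_17 (Ok2.part 163840 p0_2_16 (Ok2.split 1 p0_2_15 (Ok2.part 245761 p0_2_14 (Ok2.split 0 p0_2_13 (Ok2.split 1 p0_2_12 (Ok2.part 1319 p0_2_11 (Ok2.split 0 p0_2_10 (Ok2.part 64 p0_2_9 (Ok2.split 1 p0_2_7 p0_2_8)))))))))))))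
theorem o0_1 : Ok2 par f1 Box3.unit C0 :=
  (Ok2.part 4722366482869544550399 p0_1_0 p0_1_1)
theorem o0_0 : Ok2 par f0 Box3.unit C0 :=
  p0_0_0

theorem pt0 : PtAll2 par C0 :=
  PtAll2.of_okD hw (OkD2.cover [f0.dom,f1.dom,f2.dom,f3.dom,f4.dom,f5.dom,f6.dom,f7.dom]
    (.split 0 (.leaf 0) (.split 1 (.split 0 (.leaf 1) (.leaf 2)) (.split 0 (.leaf 3) (.split 1 (.leaf 4) (.split 0 (.leaf 5) (.split 1 (.leaf 6) (.leaf 7)))))))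
    (by decide +kernel)
    (List.forall_mem_cons.2 ⟨OkD2.of_ok o0_0, (List.forall_mem_cons.2 ⟨OkD2.of_ok o0_1, (List.forall_mem_cons.2 ⟨OkD2.of_ok o0_2, (List.forall_mem_cons.2 ⟨OkD2.of_ok o0_3, (List.forall_mem_cons.2 ⟨OkD2.of_ok o0_4, (List.forall_mem_cons.2 ⟨OkD2.of_ok o0_5, (List.forall_mem_cons.2 ⟨OkD2.of_ok o0_6, (List.forall_mem_cons.2 ⟨OkD2.of_ok o0_7, (fun _ h => nomatch h)⟩)⟩)⟩)⟩)⟩)⟩)⟩)⟩))

end Crest.Agent.R163.B7
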